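import Mathlib
import Vale.Agent.Lib.P298.Defs
import Vale.Agent.Lib.P298.Sum
import Vale.Agent.Lib.P298.OneVar

/-!
# P298: right-triviality of Thom-Sebastiani sums with a one-variable family of constant order

`ℂ³` is modelled as `(ℂ × ℂ) × ℂ`, with coordinates `x = p.1.1.1`, `y = p.1.1.2`, `z = p.1.2`,
and the parameter is `t = p.2`.
-/

namespace Vale.Agent.Results.P298.ThomSebastiani

open Vale.Agent.Lib.P298

theorem result :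
    (∀ G : (ℂ × ℂ) × ℂ → ℂ, RightTrivial G →
      ∀ (c : ℕ) (u : ℂ × ℂ → ℂ), c ≠ 0 → AnalyticAt ℂ u (0, 0) → u (0, 0) ≠ 0 →
        RightTrivial (fun p : ((ℂ × ℂ) × ℂ) × ℂ =>
          G (p.1.1, p.2) + p.1.2 ^ c * u (p.1.2, p.2))) ∧
    (∀ (a b c : ℕ) (u₁ u₂ u₃ : ℂ × ℂ → ℂ), a ≠ 0 → b ≠ 0 → c ≠ 0 →
      AnalyticAt ℂ u₁ (0, 0) → AnalyticAt ℂ u₂ (0, 0) → AnalyticAt ℂ u₃ (0, 0) →
      u₁ (0, 0) ≠ 0 → u₂ (0, 0) ≠ 0 → u₃ (0, 0) ≠ 0 →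
        RightTrivial (fun p : ((ℂ × ℂ) × ℂ) × ℂ =>
          p.1.1.1 ^ a * u₁ (p.1.1.1, p.2) + p.1.1.2 ^ b * u₂ (p.1.1.2, p.2)
            + p.1.2 ^ c * u₃ (p.1.2, p.2))) := by
  constructor
  · intro G hG c u hc hu hu0
    exact RightTrivial.add hG (rightTrivial_one c hc u hu hu0)
  · intro a b c u₁ u₂ u₃ ha hb hc h₁ h₂ h₃ k₁ k₂ k₃
    have h12 := RightTrivial.add (rightTrivial_one a ha u₁ h₁ k₁) (rightTrivial_one b hb u₂ h₂ k₂)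
    exact RightTrivial.add h12 (rightTrivial_one c hc u₃ h₃ k₃)

end Vale.Agent.Results.P298.ThomSebastiani
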